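import Mathlib

/-!
# P043 (periodic tiling conjecture): two-element tiles, in every dimension

Every two-element subset `{u, v}` of `ℤ^d` tiles `ℤ^d` by translations, with a translation set
invariant under the full-rank sublattice `M ℤ^d`.
-/

namespace Vale.Agent.Results.P043.TwoElementTiles

theorem key (m t : ℤ) (hm : 0 < m) : (t + m) % (2 * m) < m ↔ ¬ (t % (2 * m) < m) := by
  have h2 : (0 : ℤ) < 2 * m := by omega
  have hr0 := Int.emod_nonneg t h2.ne'
  have hr1 := Int.emod_lt_of_pos t h2
  rw [← Int.emod_add_emod t (2 * m) m]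
  generalize t % (2 * m) = r at *
  by_cases hr : r < m
  · rw [Int.emod_eq_of_lt (by omega) (by omega)]
    constructor
    · intro h; omega
    · intro h; exact absurd hr h
  · rw [Int.emod_eq_sub_self_emod, Int.emod_eq_of_lt (by omega) (by omega)]
    constructor
    · intro _; exact hr
    · intro _; omega

theorem key' (m t : ℤ) (hm : 0 < m) : (t - m) % (2 * m) < m ↔ ¬ (t % (2 * m) < m) := by
  rw [← key m t hm]
  have : t + m = (t - m) + (2 * m) * 1 := by ring
  rw [this, Int.add_mul_emod_self_left]

theorem result (d : ℕ) (u v : Fin d → ℤ) (huv : u ≠ v) :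
    ∃ A : Set (Fin d → ℤ),
      (∀ g : Fin d → ℤ, ∃! p : (Fin d → ℤ) × (Fin d → ℤ),
        p.1 ∈ A ∧ p.2 ∈ ({u, v} : Set (Fin d → ℤ)) ∧ p.1 + p.2 = g) ∧
      ∃ M : ℤ, 0 < M ∧ ∀ (h a : Fin d → ℤ), a ∈ A ↔ a + M • h ∈ A := by
  obtain ⟨i, hi⟩ := Function.ne_iff.1 huv
  set m : ℤ := |v i - u i| with hm
  have hm0 : 0 < m := abs_pos.2 (sub_ne_zero.2 (Ne.symm hi))
  refine ⟨{x | x i % (2 * m) < m}, ?_, 2 * m, by omega, ?_⟩
  · intro g
    have hP : ((g - v) i % (2 * m) < m) ↔ ¬ ((g - u) i % (2 * m) < m) := by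
      rcases abs_choice (v i - u i) with h | h
      · have e : (g - v) i = (g - u) i - m := by
          simp only [Pi.sub_apply]; rw [hm, h]; ring
        rw [e]; exact key' m _ hm0
      · have e : (g - v) i = (g - u) i + m := by
          simp only [Pi.sub_apply]; rw [hm, h]; ring
        rw [e]; exact key m _ hm0
    by_cases h1 : (g - u) i % (2 * m) < m
    · refine ⟨(g - u, u), ⟨h1, Or.inl rfl, by simp⟩, ?_⟩
      rintro ⟨a, f⟩ ⟨ha, hf, hg⟩
      simp only at ha hf hg
      rcases hf with rfl | hf
      · have : a = g - f := by rw [← hg]; simp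
        rw [this]
      · have hf' : f = v := hf
        subst hf'
        have : a = g - f := by rw [← hg]; simp
        rw [this] at ha
        exact absurd h1 (hP.1 ha)
    · refine ⟨(g - v, v), ⟨hP.2 h1, Or.inr rfl, by simp⟩, ?_⟩
      rintro ⟨a, f⟩ ⟨ha, hf, hg⟩
      simp only at ha hf hg
      rcases hf with rfl | hf
      · have : a = g - f := by rw [← hg]; simp
        rw [this] at ha
        exact absurd ha h1
      · have hf' : f = v := hf
        subst hf'
        have : a = g - f := by rw [← hg]; simp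
        rw [this]
  · intro h a
    simp only [Set.mem_ofPred_eq, Pi.add_apply, Pi.smul_apply, smul_eq_mul]
    rw [Int.add_mul_emod_self_left]

end Vale.Agent.Results.P043.TwoElementTiles
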