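import Vale.Agent.Results.P043.FlatTiles
import Vale.Agent.Results.P043.TwoElementTiles

/-!
# P043 (periodic tiling conjecture): conjunction of the two special cases

(A) two-element tiles of `ℤ^d` admit periodic tilings, in every dimension;
(B) the periodic tiling property passes from `F₀ ⊆ K` to the flat tile `F₀ × {0} ⊆ K × C`.
-/

namespace Vale.Agent.Results.P043.AllParts

open Vale.Agent.Results.P043.FlatTiles

theorem result :
    (∀ (d : ℕ) (u v : Fin d → ℤ), u ≠ v →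
      ∃ A : Set (Fin d → ℤ),
        (∀ g : Fin d → ℤ, ∃! p : (Fin d → ℤ) × (Fin d → ℤ),
          p.1 ∈ A ∧ p.2 ∈ ({u, v} : Set (Fin d → ℤ)) ∧ p.1 + p.2 = g) ∧
        ∃ M : ℤ, 0 < M ∧ ∀ (h a : Fin d → ℤ), a ∈ A ↔ a + M • h ∈ A) ∧
    (∀ (K C : Type) [AddCommGroup K] [AddCommGroup C] (F₀ : Set K),
      ((∃ A : Set (K × C), Tiles A (F₀ ×ˢ ({0} : Set C))) → ∃ A₀ : Set K, Tiles A₀ F₀) ∧
      ((∃ A₀ : Set K, Tiles A₀ F₀ ∧ Periodic A₀) →
        ∃ A : Set (K × C), Tiles A (F₀ ×ˢ ({0} : Set C)) ∧ Periodic A) ∧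
      (((∃ A₀ : Set K, Tiles A₀ F₀) → ∃ A₀ : Set K, Tiles A₀ F₀ ∧ Periodic A₀) →
        (∃ A : Set (K × C), Tiles A (F₀ ×ˢ ({0} : Set C))) →
          ∃ A : Set (K × C), Tiles A (F₀ ×ˢ ({0} : Set C)) ∧ Periodic A)) :=
  ⟨fun d u v huv => Vale.Agent.Results.P043.TwoElementTiles.result d u v huv,
    fun _ _ _ _ F₀ => Vale.Agent.Results.P043.FlatTiles.result F₀⟩

end Vale.Agent.Results.P043.AllParts
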