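import Mathlib

/-!
# P043: tiles lying in a direct factor

Let `K`, `C` be abelian groups and `F₀ ⊆ K`. If `F₀ × {0}` tiles `K × C` then `F₀` tiles `K`, and a
periodic tiling of `K` by `F₀` gives a periodic tiling of `K × C` by `F₀ × {0}`. Hence the periodic
tiling property passes from `F₀` in `K` to `F₀ × {0}` in `K × C`.
-/

namespace Vale.Agent.Results.P043.FlatTiles

/-- `A ⊕ F = G` -/
def Tiles {G : Type*} [AddCommGroup G] (A F : Set G) : Prop :=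
  ∀ g : G, ∃! p : G × G, p.1 ∈ A ∧ p.2 ∈ F ∧ p.1 + p.2 = g

/-- `A + h = A` for all `h` in a subgroup of finite index -/
def Periodic {G : Type*} [AddCommGroup G] (A : Set G) : Prop :=
  ∃ L : AddSubgroup G, L.FiniteIndex ∧ ∀ h ∈ L, ∀ a, a + h ∈ A ↔ a ∈ A

theorem tiles_factor {K C : Type*} [AddCommGroup K] [AddCommGroup C] {F₀ : Set K}
    {A : Set (K × C)} (h : Tiles A (F₀ ×ˢ ({0} : Set C))) :
    Tiles {a : K | (a, (0 : C)) ∈ A} F₀ := by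
  intro k
  obtain ⟨⟨⟨a, c⟩, ⟨f, z⟩⟩, ⟨hA, hF, hsum⟩, huniq⟩ := h (k, 0)
  simp only [Set.mem_prod, Set.mem_singleton_iff] at hF
  obtain ⟨hf, rfl⟩ := hF
  simp only [Prod.mk_add_mk, add_zero, Prod.mk.injEq] at hsum
  obtain ⟨hk, rfl⟩ := hsum
  refine ⟨(a, f), ⟨hA, hf, hk⟩, ?_⟩
  rintro ⟨a', f'⟩ ⟨hA', hf', hk'⟩
  have := huniq ((a', 0), (f', 0)) ⟨hA', ⟨hf', rfl⟩, by simp [hk']⟩
  simp only [Prod.mk.injEq, and_true] at this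
  exact Prod.ext this.1 this.2

theorem tiles_prod {K C : Type*} [AddCommGroup K] [AddCommGroup C] {F₀ A₀ : Set K}
    (h : Tiles A₀ F₀) : Tiles (A₀ ×ˢ (Set.univ : Set C)) (F₀ ×ˢ ({0} : Set C)) := by
  rintro ⟨k, c⟩
  obtain ⟨⟨a, f⟩, ⟨hA, hF, hsum⟩, huniq⟩ := h k
  refine ⟨((a, c), (f, 0)), ⟨⟨hA, Set.mem_univ _⟩, ⟨hF, rfl⟩, by simpa using hsum⟩, ?_⟩
  rintro ⟨⟨a', c'⟩, ⟨f', z'⟩⟩ ⟨⟨hA', _⟩, ⟨hF', hz⟩, hsum'⟩
  simp only [Set.mem_singleton_iff] at hz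
  subst hz
  simp only [Prod.mk_add_mk, add_zero, Prod.mk.injEq] at hsum'
  have := huniq (a', f') ⟨hA', hF', hsum'.1⟩
  simp only [Prod.mk.injEq] at this
  obtain ⟨rfl, rfl⟩ := this
  rw [hsum'.2]

theorem periodic_prod {K C : Type*} [AddCommGroup K] [AddCommGroup C] {A₀ : Set K}
    (h : Periodic A₀) : Periodic (A₀ ×ˢ (Set.univ : Set C)) := by
  obtain ⟨L, hL, hinv⟩ := h
  refine ⟨L.prod ⊤, ⟨?_⟩, ?_⟩
  · rw [AddSubgroup.index_prod, AddSubgroup.index_top, mul_one]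
    exact hL.index_ne_zero
  · rintro ⟨h1, h2⟩ hh ⟨a, c⟩
    have hh1 : h1 ∈ L := (AddSubgroup.mem_prod.1 hh).1
    simp only [Prod.mk_add_mk, Set.mem_prod, Set.mem_univ, and_true]
    exact hinv h1 hh1 a

theorem result {K C : Type*} [AddCommGroup K] [AddCommGroup C] (F₀ : Set K) :
    ((∃ A : Set (K × C), Tiles A (F₀ ×ˢ ({0} : Set C))) → ∃ A₀ : Set K, Tiles A₀ F₀) ∧
    ((∃ A₀ : Set K, Tiles A₀ F₀ ∧ Periodic A₀) →
      ∃ A : Set (K × C), Tiles A (F₀ ×ˢ ({0} : Set C)) ∧ Periodic A) ∧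
    (((∃ A₀ : Set K, Tiles A₀ F₀) → ∃ A₀ : Set K, Tiles A₀ F₀ ∧ Periodic A₀) →
      (∃ A : Set (K × C), Tiles A (F₀ ×ˢ ({0} : Set C))) →
        ∃ A : Set (K × C), Tiles A (F₀ ×ˢ ({0} : Set C)) ∧ Periodic A) := by
  have h1 : (∃ A : Set (K × C), Tiles A (F₀ ×ˢ ({0} : Set C))) → ∃ A₀ : Set K, Tiles A₀ F₀ :=
    fun ⟨_, hA⟩ => ⟨_, tiles_factor hA⟩
  have h2 : (∃ A₀ : Set K, Tiles A₀ F₀ ∧ Periodic A₀) →
      ∃ A : Set (K × C), Tiles A (F₀ ×ˢ ({0} : Set C)) ∧ Periodic A :=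
    fun ⟨_, hA, hP⟩ => ⟨_, tiles_prod hA, periodic_prod hP⟩
  exact ⟨h1, h2, fun h hA => h2 (h (h1 hA))⟩

end Vale.Agent.Results.P043.FlatTiles
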